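import Mathlib

namespace Vale.Agent.H85

open Set

variable {α : Type*}

/-- Counting by a potential: let `S` be a family of `r`-subsets of a finite set `E`, and `Φ` a
natural-valued potential on sets, bounded by `T` on `S`, such that every member of `S` of
positive potential can be turned by a single exchange into a member of `S` of strictly smaller
potential. Then `S` has at most `(r (n - r) + 1) ^ T` times as many members as it has members
of potential `0`. -/
theorem ncard_le_pow_mul_of_potential (E : Set α) (hfin : E.Finite) (r : ℕ)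
    (S : Set (Set α)) (Φ : Set α → ℕ) (T : ℕ)
    (hS : ∀ A ∈ S, A ⊆ E ∧ A.ncard = r)
    (hstep : ∀ A ∈ S, Φ A ≠ 0 → ∃ x ∈ A, ∃ y ∈ E \ A,
      insert y (A \ {x}) ∈ S ∧ Φ (insert y (A \ {x})) < Φ A)
    (hT : ∀ A ∈ S, Φ A ≤ T) :
    S.ncard ≤ (r * (E.ncard - r) + 1) ^ T * {A | A ∈ S ∧ Φ A = 0}.ncard := by
  classical
  have hpow : {B : Set α | B ⊆ E}.Finite := hfin.finite_subsets
  have hSfin : S.Finite := hpow.subset (fun A hA => (hS A hA).1)
  -- level sets
  let L : ℕ → Set (Set α) := fun s => {A | A ∈ S ∧ Φ A ≤ s}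
  have hLfin : ∀ s, (L s).Finite := fun s => hSfin.subset (fun A hA => hA.1)
  -- neighbourhood of a set
  let N : Set α → Set (Set α) := fun B' =>
    (fun p : α × α => insert p.2 (B' \ {p.1})) '' (B' ×ˢ (E \ B'))
  have hNcard : ∀ B' ∈ S, (N B').ncard ≤ r * (E.ncard - r) := by
    intro B' hB'
    obtain ⟨hB'E, hB'card⟩ := hS B' hB'
    have hB'fin : B'.Finite := hfin.subset hB'E
    have hprodfin : (B' ×ˢ (E \ B')).Finite := hB'fin.prod hfin.sdiff
    calc (N B').ncard ≤ (B' ×ˢ (E \ B')).ncard := ncard_image_le hprodfin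
      _ = B'.ncard * (E \ B').ncard := ncard_prod
      _ = r * (E.ncard - r) := by rw [ncard_sdiff' hB'E hfin, hB'card]
  have hNfin : ∀ B' ∈ S, (N B').Finite := by
    intro B' hB'
    obtain ⟨hB'E, -⟩ := hS B' hB'
    exact ((hfin.subset hB'E).prod hfin.sdiff).image _
  have hlevel : ∀ s, (L (s + 1)).ncard ≤ (r * (E.ncard - r) + 1) * (L s).ncard := by
    intro s
    have hcover : L (s + 1) ⊆ L s ∪ ⋃ B' ∈ (hLfin s).toFinset, N B' := by
      intro A hA
      by_cases hAs : Φ A ≤ s
      · exact Or.inl ⟨hA.1, hAs⟩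
      · right
        have hne : Φ A ≠ 0 := by omega
        obtain ⟨x, hxA, y, hy, hA'S, hlt⟩ := hstep A hA.1 hne
        have hxy : x ≠ y := fun h => hy.2 (h ▸ hxA)
        have hA's : Φ (insert y (A \ {x})) ≤ s := by
          have := hA.2
          omega
        simp only [mem_iUnion, Finite.mem_toFinset, exists_prop]
        refine ⟨insert y (A \ {x}), ⟨hA'S, hA's⟩, (y, x), ⟨?_, ?_, ?_⟩, ?_⟩
        · exact mem_insert _ _
        · exact (hS A hA.1).1 hxA
        · rintro (h | h)
          · exact hxy h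
          · exact h.2 rfl
        · show insert x (insert y (A \ {x}) \ {y}) = A
          have hyn : y ∉ A \ {x} := fun h => hy.2 h.1
          rw [insert_sdiff_of_mem _ (mem_singleton y), sdiff_singleton_eq_self hyn,
            insert_sdiff_singleton, insert_eq_of_mem hxA]
    have hTfin : (L s ∪ ⋃ B' ∈ (hLfin s).toFinset, N B').Finite := by
      refine (hLfin s).union ?_
      refine Set.Finite.biUnion (Finset.finite_toSet _) ?_
      intro B' hB'
      have hB'L : B' ∈ L s := by simpa using hB'
      exact hNfin B' hB'L.1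
    calc (L (s + 1)).ncard
        ≤ (L s ∪ ⋃ B' ∈ (hLfin s).toFinset, N B').ncard := ncard_le_ncard hcover hTfin
      _ ≤ (L s).ncard + (⋃ B' ∈ (hLfin s).toFinset, N B').ncard := ncard_union_le _ _
      _ ≤ (L s).ncard + ∑ B' ∈ (hLfin s).toFinset, (N B').ncard := by
          gcongr
          exact Finset.set_ncard_biUnion_le _ _
      _ ≤ (L s).ncard + ∑ _B' ∈ (hLfin s).toFinset, r * (E.ncard - r) := by
          gcongr with B' hB'
          have hB'L : B' ∈ L s := by simpa using hB'
          exact hNcard B' hB'L.1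
      _ = (r * (E.ncard - r) + 1) * (L s).ncard := by
          rw [Finset.sum_const, ncard_eq_toFinset_card (L s) (hLfin s), smul_eq_mul]
          ring
  have hall : ∀ s, (L s).ncard ≤ (r * (E.ncard - r) + 1) ^ s * (L 0).ncard := by
    intro s
    induction s with
    | zero => simp
    | succ s ih =>
      calc (L (s + 1)).ncard ≤ (r * (E.ncard - r) + 1) * (L s).ncard := hlevel s
        _ ≤ (r * (E.ncard - r) + 1) * ((r * (E.ncard - r) + 1) ^ s * (L 0).ncard) := by gcongr
        _ = (r * (E.ncard - r) + 1) ^ (s + 1) * (L 0).ncard := by ring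
  have hLT : L T = S := by
    ext A
    exact ⟨fun h => h.1, fun h => ⟨h, hT A h⟩⟩
  have hL0 : L 0 = {A | A ∈ S ∧ Φ A = 0} := by
    ext A
    simp only [L, mem_ofPred_eq, Nat.le_zero]
  have := hall T
  rw [hLT, hL0] at this
  exact this

end Vale.Agent.H85
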