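import Vale.Agent.H85.ExchangeCount

namespace Vale.Agent.H85

open Set

variable {α : Type*}

/-- The coloops of the restriction of `M` to `A`: elements of `A` not spanned by the rest. -/
def coloopsIn (M : Matroid α) (A : Set α) : Set α := {x | x ∈ A ∧ x ∉ M.closure (A \ {x})}

theorem coloopsIn_subset (M : Matroid α) (A : Set α) : coloopsIn M A ⊆ A := fun _ h => h.1

/-- An `r`-subset of the ground set of a rank-`r` matroid is a base iff it has rank `r`. -/
theorem isBase_iff_eRk_eq (M : Matroid α) (r : ℕ) (hr : M.eRank = r) {A : Set α}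
    (hA : A.encard = r) : M.IsBase A ↔ M.eRk A = r := by
  have hAfin : A.Finite := Set.finite_of_encard_eq_coe hA
  constructor
  · intro h
    rw [h.eRk_eq_eRank, hr]
  · intro h
    have hI : M.Indep A := by
      rw [Matroid.indep_iff_eRk_eq_encard_of_finite hAfin, h, hA]
    exact hI.isBase_of_eRk_ge hAfin (by rw [h, hr])

/-- If an `r`-subset `A` of the ground set of a rank-`r` matroid `M` is not a base, then every
base of `M` has an element outside the closure of `A`. -/
theorem exists_notMem_closure (M : Matroid α) (r : ℕ) (hr : M.eRank = r) {A B₀ : Set α}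
    (hAE : A ⊆ M.E) (hA : A.encard = r) (hAnb : ¬ M.IsBase A) (hB₀ : M.IsBase B₀) :
    ∃ y ∈ B₀, y ∉ M.closure A := by
  have hAfin : A.Finite := Set.finite_of_encard_eq_coe hA
  by_contra hcon
  have hsub : B₀ ⊆ M.closure A := fun z hz => by
    by_contra hz'
    exact hcon ⟨z, hz, hz'⟩
  have hsp : M.Spanning A := by
    rw [Matroid.spanning_iff_ground_subset_closure hAE, ← hB₀.closure_eq]
    exact M.closure_subset_closure_of_subset_closure hsub
  obtain ⟨B', hB', hB'A⟩ := hsp.exists_isBase_subset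
  have hB'card : B'.encard = r := by rw [hB'.encard_eq_eRank, hr]
  have hB'fin : B'.Finite := hAfin.subset hB'A
  have : B' = A := hB'fin.eq_of_subset_of_encard_le hB'A (by rw [hB'card, hA])
  exact hAnb (this ▸ hB')

/-- Exchange along a fundamental circuit. -/
theorem isBase_exchange_fundCircuit (M : Matroid α) {A : Set α} {x y : α} (hA : M.IsBase A)
    (hyE : y ∈ M.E) (hyA : y ∉ A) (hx : x ∈ M.fundCircuit y A) (hxy : x ≠ y) :
    M.IsBase (insert y (A \ {x})) := by
  have hcl : y ∈ M.closure A := by rw [hA.closure_eq]; exact hyE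
  have hind : M.Indep (insert y A \ {x}) := (hA.indep.mem_fundCircuit_iff hcl hyA).mp hx
  rw [← insert_sdiff_singleton_comm hxy.symm] at hind
  exact hA.exchange_isBase_of_indep hyA hind

/-- Rank after exchanging a non-coloop `x` of `A` for an element `y` outside the closure. -/
theorem eRk_exchange_of_mem_closure (M : Matroid α) {A : Set α} {x y : α} (hxA : x ∈ A)
    (hx : x ∈ M.closure (A \ {x})) (hyE : y ∈ M.E) (hy : y ∉ M.closure A) :
    M.eRk (insert y (A \ {x})) = M.eRk A + 1 := by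
  have hcl : M.closure (A \ {x}) = M.closure A := by
    have := M.closure_insert_eq_of_mem_closure hx
    rw [insert_sdiff_singleton, insert_eq_of_mem hxA] at this
    exact this.symm
  have h1 : M.eRk (insert y (A \ {x})) = M.eRk (A \ {x}) + 1 :=
    Matroid.eRk_insert_eq_add_one ⟨hyE, by rwa [hcl]⟩
  have h2 : M.eRk (A \ {x}) = M.eRk A := by
    rw [← M.eRk_closure_eq (A \ {x}), hcl, M.eRk_closure_eq]
  rw [h1, h2]

/-- Rank after exchanging a coloop `x` of `A` for an element `y` outside the closure. -/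
theorem eRk_exchange_of_notMem_closure (M : Matroid α) {A : Set α} {x y : α} (hxA : x ∈ A)
    (hxE : x ∈ M.E) (hx : x ∉ M.closure (A \ {x})) (hyE : y ∈ M.E) (hy : y ∉ M.closure A) :
    M.eRk (insert y (A \ {x})) = M.eRk A := by
  have hy' : y ∉ M.closure (A \ {x}) := fun h => hy (M.closure_subset_closure sdiff_subset h)
  have h1 : M.eRk (insert y (A \ {x})) = M.eRk (A \ {x}) + 1 :=
    Matroid.eRk_insert_eq_add_one ⟨hyE, hy'⟩
  have h2 : M.eRk (insert x (A \ {x})) = M.eRk (A \ {x}) + 1 :=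
    Matroid.eRk_insert_eq_add_one ⟨hxE, hx⟩
  rw [insert_sdiff_singleton, insert_eq_of_mem hxA] at h2
  rw [h1, h2]

/-- Coloops after exchanging a coloop `x` of `A` for an element `y ∈ B₀` outside the closure of
`A`: away from `B₀`, exactly `x` disappears. -/
theorem coloopsIn_exchange_sdiff (M : Matroid α) {A B₀ : Set α} {x y : α} (hxA : x ∈ A)
    (hx : x ∉ M.closure (A \ {x})) (hy : y ∉ M.closure A) (hyB₀ : y ∈ B₀) :
    coloopsIn M (insert y (A \ {x})) \ B₀ = (coloopsIn M A \ B₀) \ {x} := by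
  ext z
  simp only [coloopsIn, mem_sdiff, mem_ofPred_eq, mem_insert_iff, mem_singleton_iff]
  constructor
  · rintro ⟨⟨hzA', hzcl⟩, hzB₀⟩
    have hzy : z ≠ y := fun h => hzB₀ (h ▸ hyB₀)
    rcases hzA' with h | ⟨hzA, hzx⟩
    · exact absurd h hzy
    have hT1 : insert y (A \ {x}) \ {z} = insert y ((A \ {x}) \ {z}) := by
      rw [insert_sdiff_singleton_comm (Ne.symm hzy)]
    have hT2 : A \ {z} = insert x ((A \ {x}) \ {z}) := by
      ext w
      simp only [mem_sdiff, mem_singleton_iff, mem_insert_iff]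
      constructor
      · rintro ⟨hwA, hwz⟩
        by_cases hwx : w = x
        · exact Or.inl hwx
        · exact Or.inr ⟨⟨hwA, hwx⟩, hwz⟩
      · rintro (h | ⟨⟨hwA, -⟩, hwz⟩)
        · exact ⟨h ▸ hxA, fun h' => hzx (h'.symm.trans h)⟩
        · exact ⟨hwA, hwz⟩
    have hT3 : insert z ((A \ {x}) \ {z}) = A \ {x} := by
      rw [insert_sdiff_singleton, insert_eq_of_mem (show z ∈ A \ {x} from ⟨hzA, hzx⟩)]
    refine ⟨⟨⟨hzA, ?_⟩, hzB₀⟩, hzx⟩
    intro hz
    rw [hT2] at hz
    rw [hT1] at hzcl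
    have hzT : z ∉ M.closure ((A \ {x}) \ {z}) := fun h =>
      hzcl (M.closure_subset_closure (subset_insert _ _) h)
    have := Matroid.mem_closure_insert hzT hz
    rw [hT3] at this
    exact hx this
  · rintro ⟨⟨⟨hzA, hzcl⟩, hzB₀⟩, hzx⟩
    have hzy : z ≠ y := fun h => hzB₀ (h ▸ hyB₀)
    have hT1 : insert y (A \ {x}) \ {z} = insert y ((A \ {x}) \ {z}) := by
      rw [insert_sdiff_singleton_comm (Ne.symm hzy)]
    have hT3 : insert z ((A \ {x}) \ {z}) = A \ {x} := by
      rw [insert_sdiff_singleton, insert_eq_of_mem (show z ∈ A \ {x} from ⟨hzA, hzx⟩)]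
    refine ⟨⟨Or.inr ⟨hzA, hzx⟩, ?_⟩, hzB₀⟩
    intro hz
    rw [hT1] at hz
    have hzT : z ∉ M.closure ((A \ {x}) \ {z}) := fun h =>
      hzcl (M.closure_subset_closure
        (show (A \ {x}) \ {z} ⊆ A \ {z} from fun w hw => ⟨hw.1.1, hw.2⟩) h)
    have := Matroid.mem_closure_insert hzT hz
    rw [hT3] at this
    exact hy (M.closure_subset_closure sdiff_subset this)

/-- If every circuit of `M` has at least `r - k` elements, a dependent `r`-set has at most `k`
coloops. -/
theorem coloopsIn_ncard_le (M : Matroid α) (r k : ℕ)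
    (hgirth : ∀ C, M.IsCircuit C → (r : ℕ∞) ≤ C.encard + k) {A : Set α}
    (hA : A.encard = r) (hdep : M.Dep A) : (coloopsIn M A).ncard ≤ k := by
  have hAfin : A.Finite := Set.finite_of_encard_eq_coe hA
  obtain ⟨C, hCA, hC⟩ := hdep.exists_isCircuit_subset
  have hCfin : C.Finite := hAfin.subset hCA
  have hsub : coloopsIn M A ⊆ A \ C := by
    rintro x ⟨hxA, hxcl⟩
    refine ⟨hxA, fun hxC => hxcl ?_⟩
    exact M.closure_subset_closure (sdiff_subset_sdiff_left hCA)
      (hC.mem_closure_sdiff_singleton_of_mem hxC)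
  have hAn : A.ncard = r := by rw [ncard_def, hA, ENat.toNat_natCast]
  have hCn : r ≤ C.ncard + k := by
    have := hgirth C hC
    rw [← hCfin.cast_ncard_eq] at this
    exact_mod_cast this
  have h1 : (A \ C).ncard = A.ncard - C.ncard := ncard_sdiff' hCA hAfin
  have h2 : (coloopsIn M A).ncard ≤ (A \ C).ncard := ncard_le_ncard hsub hAfin.sdiff
  omega

/-- If every circuit of `M` has at least `r - k` elements, an `r`-set has rank at least
`r - k - 1`. -/
theorem le_eRk_add (M : Matroid α) (r k : ℕ)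
    (hgirth : ∀ C, M.IsCircuit C → (r : ℕ∞) ≤ C.encard + k) {A : Set α}
    (hAE : A ⊆ M.E) (hA : A.encard = r) : (r : ℕ∞) ≤ M.eRk A + (k + 1 : ℕ) := by
  obtain ⟨I, hI⟩ := M.exists_isBasis A hAE
  by_cases hIA : I = A
  · rw [← hI.encard_eq_eRk, hIA, hA]
    exact le_self_add
  · obtain ⟨e, heA, heI⟩ := exists_of_ssubset (hI.subset.ssubset_of_ne hIA)
    have hdep : M.Dep (insert e I) := hI.insert_dep ⟨heA, heI⟩
    obtain ⟨C, hCI, hC⟩ := hdep.exists_isCircuit_subset
    have h1 : C.encard ≤ I.encard + 1 := by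
      calc C.encard ≤ (insert e I).encard := encard_mono hCI
        _ ≤ I.encard + 1 := encard_insert_le I e
    calc (r : ℕ∞) ≤ C.encard + k := hgirth C hC
      _ ≤ I.encard + 1 + k := by gcongr
      _ = M.eRk A + (k + 1 : ℕ) := by
          rw [hI.encard_eq_eRk, add_assoc]
          push_cast
          ring

open Classical in
/-- The potential used to bound the exchange distance to a common base. -/
noncomputable def pot (M₁ : Matroid α) (B₀ : Set α) (r k : ℕ) (A : Set α) : ℕ :=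
  if M₁.IsBase A then 0
  else (k + 1) * (r - (M₁.eRk A).toNat - 1) + (coloopsIn M₁ A \ B₀).ncard + 1

theorem pot_eq_zero_iff (M₁ : Matroid α) (B₀ : Set α) (r k : ℕ) (A : Set α) :
    pot M₁ B₀ r k A = 0 ↔ M₁.IsBase A := by
  unfold pot
  split_ifs with h
  · simp [h]
  · simp [h]

/-- One exchange step strictly decreasing the potential. -/
theorem exists_exchange_pot_lt (M₁ M₂ : Matroid α) (r k : ℕ)
    (hE : M₁.E = M₂.E) (hr₁ : M₁.eRank = r) (hr₂ : M₂.eRank = r)
    (hgirth : ∀ C, M₁.IsCircuit C → (r : ℕ∞) ≤ C.encard + k)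
    {B₀ A : Set α} (hB₀₁ : M₁.IsBase B₀) (hB₀₂ : M₂.IsBase B₀)
    (hA₂ : M₂.IsBase A) (hA₁ : ¬ M₁.IsBase A) :
    ∃ x ∈ A, ∃ y ∈ M₁.E \ A, M₂.IsBase (insert y (A \ {x})) ∧
      pot M₁ B₀ r k (insert y (A \ {x})) < pot M₁ B₀ r k A := by
  have hAcard : A.encard = r := by rw [hA₂.encard_eq_eRank, hr₂]
  have hAfin : A.Finite := Set.finite_of_encard_eq_coe hAcard
  have hAE : A ⊆ M₁.E := hE ▸ hA₂.subset_ground
  obtain ⟨y, hyB₀, hycl⟩ := exists_notMem_closure M₁ r hr₁ hAE hAcard hA₁ hB₀₁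
  have hyA : y ∉ A := fun h => hycl (M₁.subset_closure A hAE h)
  have hyE₁ : y ∈ M₁.E := hB₀₁.subset_ground hyB₀
  have hyE₂ : y ∈ M₂.E := hB₀₂.subset_ground hyB₀
  have hC : M₂.IsCircuit (M₂.fundCircuit y A) := hA₂.fundCircuit_isCircuit hyE₂ hyA
  -- the rank of A as a natural number
  have hle : M₁.eRk A ≤ r := by rw [← hAcard]; exact M₁.eRk_le_encard A
  have hne_top : M₁.eRk A ≠ ⊤ := ne_top_of_le_ne_top (ENat.natCast_ne_top r) hle
  set ρ := (M₁.eRk A).toNat with hρdef
  have hρ : M₁.eRk A = ρ := (ENat.natCast_toNat hne_top).symm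
  have hρr : ρ < r := by
    have h1 : ρ ≤ r := by rw [hρ] at hle; exact_mod_cast hle
    have h2 : ρ ≠ r := by
      intro h
      apply hA₁
      rw [isBase_iff_eRk_eq M₁ r hr₁ hAcard, hρ, h]
    omega
  have hpotA : pot M₁ B₀ r k A =
      (k + 1) * (r - ρ - 1) + (coloopsIn M₁ A \ B₀).ncard + 1 := by
    unfold pot
    rw [if_neg hA₁]
  by_cases hprog : ∃ x ∈ M₂.fundCircuit y A, x ≠ y ∧ x ∈ M₁.closure (A \ {x})
  · -- progress step
    obtain ⟨x, hxC, hxy, hxcl⟩ := hprog
    have hxA : x ∈ A := by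
      rcases M₂.fundCircuit_subset_insert y A hxC with h | h
      · exact absurd h hxy
      · exact h
    have hA'₂ : M₂.IsBase (insert y (A \ {x})) :=
      isBase_exchange_fundCircuit M₂ hA₂ hyE₂ hyA hxC hxy
    have hA'card : (insert y (A \ {x})).encard = r := by rw [hA'₂.encard_eq_eRank, hr₂]
    have hrk : M₁.eRk (insert y (A \ {x})) = (ρ + 1 : ℕ) := by
      rw [eRk_exchange_of_mem_closure M₁ hxA hxcl hyE₁ hycl, hρ]
      push_cast
      rfl
    refine ⟨x, hxA, y, ⟨hyE₁, hyA⟩, hA'₂, ?_⟩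
    by_cases hA'₁ : M₁.IsBase (insert y (A \ {x}))
    · rw [(pot_eq_zero_iff M₁ B₀ r k _).mpr hA'₁, hpotA]
      omega
    · have hA'E : insert y (A \ {x}) ⊆ M₁.E := hE ▸ hA'₂.subset_ground
      have hdep : M₁.Dep (insert y (A \ {x})) := by
        rw [← Matroid.not_indep_iff hA'E]
        intro hI
        apply hA'₁
        rw [isBase_iff_eRk_eq M₁ r hr₁ hA'card, hI.eRk_eq_encard, hA'card]
      have hcol : (coloopsIn M₁ (insert y (A \ {x}))).ncard ≤ k :=
        coloopsIn_ncard_le M₁ r k hgirth hA'card hdep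
      have hA'fin : (insert y (A \ {x})).Finite := Set.finite_of_encard_eq_coe hA'card
      have hcol' : (coloopsIn M₁ (insert y (A \ {x})) \ B₀).ncard ≤ k :=
        le_trans (ncard_le_ncard sdiff_subset (hA'fin.subset (coloopsIn_subset M₁ _))) hcol
      have hρ1 : ρ + 1 < r := by
        have h1 : ρ + 1 ≤ r := by
          have := M₁.eRk_le_encard (insert y (A \ {x}))
          rw [hrk, hA'card] at this
          exact_mod_cast this
        have h2 : ρ + 1 ≠ r := by
          intro h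
          apply hA'₁
          rw [isBase_iff_eRk_eq M₁ r hr₁ hA'card, hrk, h]
        omega
      have hpotA' : pot M₁ B₀ r k (insert y (A \ {x})) =
          (k + 1) * (r - (ρ + 1) - 1) +
            (coloopsIn M₁ (insert y (A \ {x})) \ B₀).ncard + 1 := by
        unfold pot
        rw [if_neg hA'₁, hrk, ENat.toNat_natCast]
      rw [hpotA', hpotA]
      have hmul : (k + 1) * (r - ρ - 1) = (k + 1) * (r - (ρ + 1) - 1) + (k + 1) := by
        have : r - ρ - 1 = (r - (ρ + 1) - 1) + 1 := by omega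
        rw [this, Nat.mul_succ]
      omega
  · -- stuck step
    have hstuck : ∀ x ∈ M₂.fundCircuit y A, x ≠ y → x ∉ M₁.closure (A \ {x}) := by
      intro x hx hxy hxcl
      exact hprog ⟨x, hx, hxy, hxcl⟩
    have hx : ∃ x ∈ M₂.fundCircuit y A, x ∉ B₀ := by
      by_contra hcon
      have : M₂.fundCircuit y A ⊆ B₀ := fun z hz => by
        by_contra hz'
        exact hcon ⟨z, hz, hz'⟩
      exact hC.not_indep (hB₀₂.indep.subset this)
    obtain ⟨x, hxC, hxB₀⟩ := hx
    have hxy : x ≠ y := fun h => hxB₀ (h ▸ hyB₀)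
    have hxA : x ∈ A := by
      rcases M₂.fundCircuit_subset_insert y A hxC with h | h
      · exact absurd h hxy
      · exact h
    have hxcl : x ∉ M₁.closure (A \ {x}) := hstuck x hxC hxy
    have hA'₂ : M₂.IsBase (insert y (A \ {x})) :=
      isBase_exchange_fundCircuit M₂ hA₂ hyE₂ hyA hxC hxy
    have hA'card : (insert y (A \ {x})).encard = r := by rw [hA'₂.encard_eq_eRank, hr₂]
    have hrk : M₁.eRk (insert y (A \ {x})) = ρ := by
      rw [eRk_exchange_of_notMem_closure M₁ hxA (hAE hxA) hxcl hyE₁ hycl, hρ]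
    have hA'₁ : ¬ M₁.IsBase (insert y (A \ {x})) := by
      rw [isBase_iff_eRk_eq M₁ r hr₁ hA'card, hrk]
      intro h
      have : ρ = r := by exact_mod_cast h
      omega
    have hcolset := coloopsIn_exchange_sdiff M₁ (B₀ := B₀) hxA hxcl hycl hyB₀
    have hxmem : x ∈ coloopsIn M₁ A \ B₀ := ⟨⟨hxA, hxcl⟩, hxB₀⟩
    have hfin : (coloopsIn M₁ A \ B₀).Finite :=
      (hAfin.subset (coloopsIn_subset M₁ A)).sdiff
    have hcard : (coloopsIn M₁ (insert y (A \ {x})) \ B₀).ncard + 1 =
        (coloopsIn M₁ A \ B₀).ncard := by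
      rw [hcolset]
      exact ncard_sdiff_singleton_add_one hxmem hfin
    have hpotA' : pot M₁ B₀ r k (insert y (A \ {x})) =
        (k + 1) * (r - ρ - 1) + (coloopsIn M₁ (insert y (A \ {x})) \ B₀).ncard + 1 := by
      unfold pot
      rw [if_neg hA'₁, hrk, ENat.toNat_natCast]
    refine ⟨x, hxA, y, ⟨hyE₁, hyA⟩, hA'₂, ?_⟩
    rw [hpotA', hpotA]
    omega

/-- Main counting theorem: if every circuit of `M₁` has at least `r - k` elements, where `r` is
the common rank of `M₁` and `M₂` on the same finite ground set of size `n`, and `M₁`, `M₂` have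
a common base, then the bases of `M₂` are at most `(r (n - r) + 1) ^ ((k + 1) ^ 2)` times as
many as the common bases. -/
theorem girth_common_bases (M₁ M₂ : Matroid α) (r k : ℕ)
    (hfin : M₁.E.Finite) (hE : M₁.E = M₂.E) (hr₁ : M₁.eRank = r) (hr₂ : M₂.eRank = r)
    (hgirth : ∀ C, M₁.IsCircuit C → (r : ℕ∞) ≤ C.encard + k)
    (hN : ∃ B, M₁.IsBase B ∧ M₂.IsBase B) :
    {B | M₂.IsBase B}.ncard ≤
      (r * (M₁.E.ncard - r) + 1) ^ ((k + 1) ^ 2) *
        {B | M₁.IsBase B ∧ M₂.IsBase B}.ncard := by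
  obtain ⟨B₀, hB₀₁, hB₀₂⟩ := hN
  have hcard : ∀ A, M₂.IsBase A → A.encard = r := fun A hA => by
    rw [hA.encard_eq_eRank, hr₂]
  have key := ncard_le_pow_mul_of_potential M₁.E hfin r {B | M₂.IsBase B}
    (pot M₁ B₀ r k) ((k + 1) ^ 2) ?_ ?_ ?_
  · have hset : {A | A ∈ {B | M₂.IsBase B} ∧ pot M₁ B₀ r k A = 0} =
        {B | M₁.IsBase B ∧ M₂.IsBase B} := by
      ext A
      simp only [mem_ofPred_eq, pot_eq_zero_iff]
      exact and_comm
    rw [hset] at key
    exact key
  · intro A hA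
    have hA' : M₂.IsBase A := hA
    refine ⟨hE ▸ hA'.subset_ground, ?_⟩
    rw [ncard_def, hcard A hA', ENat.toNat_natCast]
  · intro A hA hpot
    have hA' : M₂.IsBase A := hA
    have hA₁ : ¬ M₁.IsBase A := fun h => hpot ((pot_eq_zero_iff M₁ B₀ r k A).mpr h)
    exact exists_exchange_pot_lt M₁ M₂ r k hE hr₁ hr₂ hgirth hB₀₁ hB₀₂ hA' hA₁
  · intro A hA
    have hA' : M₂.IsBase A := hA
    by_cases hA₁ : M₁.IsBase A
    · rw [(pot_eq_zero_iff M₁ B₀ r k A).mpr hA₁]
      exact Nat.zero_le _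
    · have hAcard := hcard A hA'
      have hAfin : A.Finite := Set.finite_of_encard_eq_coe hAcard
      have hAE : A ⊆ M₁.E := hE ▸ hA'.subset_ground
      have hdep : M₁.Dep A := by
        rw [← Matroid.not_indep_iff hAE]
        intro hI
        apply hA₁
        rw [isBase_iff_eRk_eq M₁ r hr₁ hAcard, hI.eRk_eq_encard, hAcard]
      have hcol : (coloopsIn M₁ A).ncard ≤ k := coloopsIn_ncard_le M₁ r k hgirth hAcard hdep
      have hcol' : (coloopsIn M₁ A \ B₀).ncard ≤ k :=
        le_trans (ncard_le_ncard sdiff_subset (hAfin.subset (coloopsIn_subset M₁ _))) hcol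
      have hle : M₁.eRk A ≤ r := by rw [← hAcard]; exact M₁.eRk_le_encard A
      have hne_top : M₁.eRk A ≠ ⊤ := ne_top_of_le_ne_top (ENat.natCast_ne_top r) hle
      have hρ : M₁.eRk A = ((M₁.eRk A).toNat : ℕ∞) := (ENat.natCast_toNat hne_top).symm
      have hlow : r ≤ (M₁.eRk A).toNat + (k + 1) := by
        have := le_eRk_add M₁ r k hgirth hAE hAcard
        rw [hρ] at this
        exact_mod_cast this
      have hpotA : pot M₁ B₀ r k A =
          (k + 1) * (r - (M₁.eRk A).toNat - 1) + (coloopsIn M₁ A \ B₀).ncard + 1 := by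
        unfold pot
        rw [if_neg hA₁]
      rw [hpotA]
      have h1 : r - (M₁.eRk A).toNat - 1 ≤ k := by omega
      calc (k + 1) * (r - (M₁.eRk A).toNat - 1) + (coloopsIn M₁ A \ B₀).ncard + 1
          ≤ (k + 1) * k + k + 1 := by gcongr
        _ = (k + 1) ^ 2 := by ring

end Vale.Agent.H85
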