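import Mathlib

namespace Vale.Agent.H85

open Set

variable {α : Type*}

/-- Key exchange step: if `M₁` is paving of rank `r`, `B₀` is a common base of `M₁` and `M₂`,
and `B` is a base of `M₂` that is not a base of `M₁`, then a single exchange turns `B` into a
common base. -/
theorem exists_common_exchange (M₁ M₂ : Matroid α) (r : ℕ)
    (hE : M₁.E = M₂.E) (hr₁ : M₁.eRank = r) (hr₂ : M₂.eRank = r)
    (hpav : ∀ C, M₁.IsCircuit C → (r : ℕ∞) ≤ C.encard)
    {B₀ B : Set α} (hB₀₁ : M₁.IsBase B₀) (hB₀₂ : M₂.IsBase B₀)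
    (hB₂ : M₂.IsBase B) (hB₁ : ¬ M₁.IsBase B) :
    ∃ x ∈ B, ∃ y ∈ B₀ \ B,
      M₁.IsBase (insert y (B \ {x})) ∧ M₂.IsBase (insert y (B \ {x})) := by
  have hBcard : B.encard = r := by rw [hB₂.encard_eq_eRank, hr₂]
  have hBfin : B.Finite := Set.finite_of_encard_eq_coe hBcard
  have hBE : B ⊆ M₁.E := hE ▸ hB₂.subset_ground
  -- B is dependent in M₁
  have hdep : M₁.Dep B := by
    rw [← Matroid.not_indep_iff hBE]
    intro hI
    obtain ⟨B', hB', hBB'⟩ := hI.exists_isBase_superset
    have hB'card : B'.encard = r := by rw [hB'.encard_eq_eRank, hr₁]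
    have : B = B' := hBfin.eq_of_subset_of_encard_le hBB' (by rw [hB'card, hBcard])
    exact hB₁ (this ▸ hB')
  -- B is a circuit of M₁
  have hcirc : M₁.IsCircuit B := by
    obtain ⟨C, hCB, hC⟩ := hdep.exists_isCircuit_subset
    have hCfin : C.Finite := hBfin.subset hCB
    have : C = B := hCfin.eq_of_subset_of_encard_le hCB (by rw [hBcard]; exact hpav C hC)
    exact this ▸ hC
  -- some element of B₀ is outside the closure of B in M₁
  have hy : ∃ y ∈ B₀, y ∉ M₁.closure B := by
    by_contra hcon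
    have hsub : B₀ ⊆ M₁.closure B := fun z hz => by
      by_contra hz'
      exact hcon ⟨z, hz, hz'⟩
    have hsp : M₁.Spanning B := by
      rw [Matroid.spanning_iff_ground_subset_closure hBE, ← hB₀₁.closure_eq]
      exact M₁.closure_subset_closure_of_subset_closure hsub
    obtain ⟨B', hB', hB'B⟩ := hsp.exists_isBase_subset
    have hB'card : B'.encard = r := by rw [hB'.encard_eq_eRank, hr₁]
    have hB'fin : B'.Finite := hBfin.subset hB'B
    have : B' = B := hB'fin.eq_of_subset_of_encard_le hB'B (by rw [hB'card, hBcard])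
    exact hB₁ (this ▸ hB')
  obtain ⟨y, hyB₀, hycl⟩ := hy
  have hyB : y ∉ B := fun h => hycl (M₁.subset_closure B hBE h)
  have hyE₂ : y ∈ M₂.E := hB₀₂.subset_ground hyB₀
  -- fundamental circuit of y with respect to B in M₂
  have hfc : M₂.IsCircuit (M₂.fundCircuit y B) := hB₂.fundCircuit_isCircuit hyE₂ hyB
  have hyindep : M₂.Indep {y} := hB₀₂.indep.subset (singleton_subset_iff.mpr hyB₀)
  have hx : ∃ x ∈ M₂.fundCircuit y B, x ≠ y := by
    by_contra hcon
    have : M₂.fundCircuit y B ⊆ {y} := fun z hz => by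
      by_contra hz'
      exact hcon ⟨z, hz, hz'⟩
    exact hfc.not_indep (hyindep.subset this)
  obtain ⟨x, hxC, hxy⟩ := hx
  have hxB : x ∈ B := by
    have := M₂.fundCircuit_subset_insert y B hxC
    rcases this with h | h
    · exact absurd h hxy
    · exact h
  refine ⟨x, hxB, y, ⟨hyB₀, hyB⟩, ?_, ?_⟩
  · -- base of M₁
    have hI : M₁.Indep (B \ {x}) := hcirc.sdiff_singleton_indep hxB
    have hyI : y ∉ B \ {x} := fun h => hyB h.1
    have hins : M₁.Indep (insert y (B \ {x})) := by
      rw [hI.insert_indep_iff_of_notMem hyI, hcirc.closure_sdiff_singleton_eq x]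
      exact ⟨hE ▸ hyE₂, hycl⟩
    have hfin : (insert y (B \ {x})).Finite := (hBfin.sdiff).insert y
    refine hins.isBase_of_eRk_ge hfin ?_
    rw [hins.eRk_eq_encard, encard_insert_of_notMem hyI, encard_sdiff_singleton_add_one hxB,
      hBcard, hr₁]
  · -- base of M₂
    have hcl : y ∈ M₂.closure B := by rw [hB₂.closure_eq]; exact hyE₂
    have hind : M₂.Indep (insert y B \ {x}) :=
      (hB₂.indep.mem_fundCircuit_iff hcl hyB).mp hxC
    rw [← insert_sdiff_singleton_comm hxy.symm] at hind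
    exact hB₂.exchange_isBase_of_indep hyB hind

end Vale.Agent.H85

namespace Vale.Agent.H85

open Set

variable {α : Type*}

/-- Counting consequence: for a paving matroid `M₁` of rank `r` on a finite ground set of size
`n`, and any matroid `M₂` of the same rank on the same ground set having at least one common
base with `M₁`, the common bases are at least a `1 / (r (n - r) + 1)` fraction of the bases of
`M₂`. -/
theorem paving_common_bases (M₁ M₂ : Matroid α) (r : ℕ)
    (hfin : M₁.E.Finite)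
    (hE : M₁.E = M₂.E) (hr₁ : M₁.eRank = r) (hr₂ : M₂.eRank = r)
    (hpav : ∀ C, M₁.IsCircuit C → (r : ℕ∞) ≤ C.encard)
    (hN : ∃ B, M₁.IsBase B ∧ M₂.IsBase B) :
    {B | M₂.IsBase B}.ncard ≤
      (r * (M₁.E.ncard - r) + 1) * {B | M₁.IsBase B ∧ M₂.IsBase B}.ncard := by
  classical
  obtain ⟨B₀, hB₀₁, hB₀₂⟩ := hN
  set G : Set (Set α) := {B | M₁.IsBase B ∧ M₂.IsBase B} with hG
  have hpow : {B : Set α | B ⊆ M₁.E}.Finite := hfin.finite_subsets
  have hGfin : G.Finite := hpow.subset (fun B hB => hB.1.subset_ground)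
  -- neighbourhood of a common base
  let N : Set α → Set (Set α) := fun B' =>
    (fun p : α × α => insert p.2 (B' \ {p.1})) '' (B' ×ˢ (M₁.E \ B'))
  have hNcard : ∀ B' ∈ G, (N B').ncard ≤ r * (M₁.E.ncard - r) := by
    intro B' hB'
    have hB'E : B' ⊆ M₁.E := hB'.1.subset_ground
    have hB'fin : B'.Finite := hfin.subset hB'E
    have hprodfin : (B' ×ˢ (M₁.E \ B')).Finite := hB'fin.prod hfin.sdiff
    have hB'card : B'.ncard = r := by
      have h1 : B'.encard = r := by rw [hB'.1.encard_eq_eRank, hr₁]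
      rw [ncard_def, h1, ENat.toNat_natCast]
    calc (N B').ncard ≤ (B' ×ˢ (M₁.E \ B')).ncard := ncard_image_le hprodfin
      _ = B'.ncard * (M₁.E \ B').ncard := ncard_prod
      _ = r * (M₁.E.ncard - r) := by rw [ncard_sdiff' hB'E hfin, hB'card]
  have hcover : {B | M₂.IsBase B} ⊆ G ∪ ⋃ B' ∈ hGfin.toFinset, N B' := by
    intro B hB
    by_cases hB₁ : M₁.IsBase B
    · exact Or.inl ⟨hB₁, hB⟩
    · right
      obtain ⟨x, hxB, y, hy, h₁, h₂⟩ :=
        exists_common_exchange M₁ M₂ r hE hr₁ hr₂ hpav hB₀₁ hB₀₂ hB hB₁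
      have hxy : x ≠ y := fun h => hy.2 (h ▸ hxB)
      simp only [mem_iUnion, Finite.mem_toFinset, exists_prop]
      refine ⟨insert y (B \ {x}), ⟨h₁, h₂⟩, (y, x), ⟨?_, ?_, ?_⟩, ?_⟩
      · exact mem_insert _ _
      · exact hE ▸ hB.subset_ground hxB
      · rintro (h | h)
        · exact hxy h
        · exact h.2 rfl
      · show insert x (insert y (B \ {x}) \ {y}) = B
        have hyn : y ∉ B \ {x} := fun h => hy.2 h.1
        rw [insert_sdiff_of_mem _ (mem_singleton y), sdiff_singleton_eq_self hyn,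
          insert_sdiff_singleton, insert_eq_of_mem hxB]
  have hTfin : (G ∪ ⋃ B' ∈ hGfin.toFinset, N B').Finite := by
    refine hGfin.union ?_
    refine Set.Finite.biUnion (Finset.finite_toSet _) ?_
    intro B' hB'
    have hB'G : B' ∈ G := by simpa using hB'
    have hB'E : B' ⊆ M₁.E := hB'G.1.subset_ground
    exact ((hfin.subset hB'E).prod hfin.sdiff).image _
  calc {B | M₂.IsBase B}.ncard
      ≤ (G ∪ ⋃ B' ∈ hGfin.toFinset, N B').ncard := ncard_le_ncard hcover hTfin
    _ ≤ G.ncard + (⋃ B' ∈ hGfin.toFinset, N B').ncard := ncard_union_le _ _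
    _ ≤ G.ncard + ∑ B' ∈ hGfin.toFinset, (N B').ncard := by
        gcongr
        exact Finset.set_ncard_biUnion_le _ _
    _ ≤ G.ncard + ∑ _B' ∈ hGfin.toFinset, r * (M₁.E.ncard - r) := by
        gcongr with B' hB'
        exact hNcard B' (by simpa using hB')
    _ = (r * (M₁.E.ncard - r) + 1) * G.ncard := by
        rw [Finset.sum_const, ncard_eq_toFinset_card G hGfin, smul_eq_mul]
        ring

end Vale.Agent.H85
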